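import Vale.Agent.Lib.P317.Paving

open Vale.Agent.Lib.P317 in
/-- Common bases of an arbitrary matroid `M₁` and a paving (or dual-paving) matroid `M₂` of the
same rank `r` on the same finite ground set with `n` elements: if there is a common base at all,
then the bases of `M₁` are at most `1 + r (n - r)` times as many as the common bases.  Moreover a
common base exists as soon as `M₂` is paving and `M₁` has no loops. -/
theorem Vale.Agent.Results.P317.PavingBound.result {α : Type*} (M₁ M₂ : Matroid α) (r : ℕ)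
    (hE : M₁.E = M₂.E) (hfin : M₁.E.Finite)
    (hr₁ : ∀ B, M₁.IsBase B → B.ncard = r) (hr₂ : ∀ B, M₂.IsBase B → B.ncard = r)
    (hpav : (∀ I, I ⊆ M₂.E → I.ncard < r → M₂.Indep I) ∨
      (∀ I, I ⊆ M₂.E → I.ncard < M₂.E.ncard - r → M₂✶.Indep I)) :
    ((∃ B, M₁.IsBase B ∧ M₂.IsBase B) →
      {B | M₁.IsBase B}.ncard
        ≤ (1 + r * (M₁.E.ncard - r)) * {B | M₁.IsBase B ∧ M₂.IsBase B}.ncard) ∧
    ((∀ I, I ⊆ M₂.E → I.ncard < r → M₂.Indep I) → (∀ e ∈ M₁.E, M₁.Indep {e}) →
      ∃ B, M₁.IsBase B ∧ M₂.IsBase B) := by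
  refine ⟨fun hne => ?_, fun hp hloop => ?_⟩
  · rcases hpav with hp | hp
    · exact paving_bound_of_common M₁ M₂ r hE hfin hr₁ hr₂ hp hne
    · exact copaving_bound_of_common M₁ M₂ r hE hfin hr₁ hr₂ hp hne
  · exact exists_common_of_loopless M₁ M₂ r hE hfin hr₁ hr₂ hp hloop
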