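import Vale.Agent.Lib.P317.Exchange

open Vale.Agent.Lib.P317 in
/-- Common bases of an arbitrary matroid `M₁` and a paving or dual-paving matroid `M₂` of the
same rank `r` on the same finite ground set with `n` elements.  If `M₂` is paving, a common
base exists exactly when some base of `M₂` consists of nonloops of `M₁`; in particular one
exists when `M₁` has no loops.  If `M₂` is paving or dual-paving and a common base exists, then
every base of `M₁` that is not a base of `M₂` becomes a common base after exchanging one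
element, and the bases of `M₁` are at most `1 + r (n - r)` times as many as the common bases. -/
theorem Vale.Agent.Results.P317.PavingExchange.result {α : Type*} (M₁ M₂ : Matroid α) (r : ℕ)
    (hE : M₁.E = M₂.E) (hfin : M₁.E.Finite)
    (hr₁ : ∀ B, M₁.IsBase B → B.ncard = r) (hr₂ : ∀ B, M₂.IsBase B → B.ncard = r) :
    ((∀ I, I ⊆ M₂.E → I.ncard < r → M₂.Indep I) →
      ((∃ B, M₁.IsBase B ∧ M₂.IsBase B) ↔ ∃ B₂, M₂.IsBase B₂ ∧ ∀ e ∈ B₂, M₁.Indep {e}) ∧
      ((∀ e ∈ M₁.E, M₁.Indep {e}) → ∃ B, M₁.IsBase B ∧ M₂.IsBase B)) ∧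
    (((∀ I, I ⊆ M₂.E → I.ncard < r → M₂.Indep I) ∨
        (∀ I, I ⊆ M₂.E → I.ncard < M₂.E.ncard - r → M₂✶.Indep I)) →
      (∃ B, M₁.IsBase B ∧ M₂.IsBase B) →
      (∀ B, M₁.IsBase B → ¬ M₂.IsBase B →
        ∃ x ∈ B, ∃ y ∈ M₁.E \ B,
          M₁.IsBase (insert y (B \ {x})) ∧ M₂.IsBase (insert y (B \ {x}))) ∧
      {B | M₁.IsBase B}.ncard
        ≤ (1 + r * (M₁.E.ncard - r)) * {B | M₁.IsBase B ∧ M₂.IsBase B}.ncard) := by
  refine ⟨fun hp => ⟨common_iff_good M₁ M₂ r hE hfin hr₁ hr₂ hp,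
    exists_common_of_loopless M₁ M₂ r hE hfin hr₁ hr₂ hp⟩, fun hpav hne => ?_⟩
  rcases hpav with hp | hp
  · refine ⟨fun B hB hB2 => ?_, paving_bound_of_common M₁ M₂ r hE hfin hr₁ hr₂ hp hne⟩
    exact exchange_step M₁ M₂ r hE hfin hr₁ hr₂ hp
      ((common_iff_good M₁ M₂ r hE hfin hr₁ hr₂ hp).mp hne) hB hB2
  · exact ⟨fun B hB hB2 => coexchange_step M₁ M₂ r hE hfin hr₁ hr₂ hp hne hB hB2,
      copaving_bound_of_common M₁ M₂ r hE hfin hr₁ hr₂ hp hne⟩
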