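import Vale.Agent.Lib.P317.Sharp

open Vale.Agent.Lib.P317 in
/-- Common bases of an arbitrary matroid `M₁` and a paving or dual-paving matroid `M₂` of the
same rank `r` on the same finite ground set with `n` elements, when a common base exists: the
bases of `M₁` are at most `1 + (n - r)` times as many as the common bases if `M₂` is paving, at
most `1 + r` times as many if `M₂` is dual-paving, and at most `1 + min r (n - r)` times as many
if `M₂` is both (sparse paving). -/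
theorem Vale.Agent.Results.P317.PavingLinearBound.result {α : Type*} (M₁ M₂ : Matroid α) (r : ℕ)
    (hE : M₁.E = M₂.E) (hfin : M₁.E.Finite)
    (hr₁ : ∀ B, M₁.IsBase B → B.ncard = r) (hr₂ : ∀ B, M₂.IsBase B → B.ncard = r)
    (hne : ∃ B, M₁.IsBase B ∧ M₂.IsBase B) :
    ((∀ I, I ⊆ M₂.E → I.ncard < r → M₂.Indep I) →
      {B | M₁.IsBase B}.ncard
        ≤ (1 + (M₁.E.ncard - r)) * {B | M₁.IsBase B ∧ M₂.IsBase B}.ncard) ∧
    ((∀ I, I ⊆ M₂.E → I.ncard < M₂.E.ncard - r → M₂✶.Indep I) →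
      {B | M₁.IsBase B}.ncard
        ≤ (1 + r) * {B | M₁.IsBase B ∧ M₂.IsBase B}.ncard) ∧
    ((∀ I, I ⊆ M₂.E → I.ncard < r → M₂.Indep I) →
      (∀ I, I ⊆ M₂.E → I.ncard < M₂.E.ncard - r → M₂✶.Indep I) →
      {B | M₁.IsBase B}.ncard
        ≤ (1 + min r (M₁.E.ncard - r)) * {B | M₁.IsBase B ∧ M₂.IsBase B}.ncard) := by
  have hP : (∀ I, I ⊆ M₂.E → I.ncard < r → M₂.Indep I) →
      {B | M₁.IsBase B}.ncard
        ≤ (1 + (M₁.E.ncard - r)) * {B | M₁.IsBase B ∧ M₂.IsBase B}.ncard := fun hp =>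
    paving_bound_sharp M₁ M₂ r hE hfin hr₁ hr₂ hp
      ((common_iff_good M₁ M₂ r hE hfin hr₁ hr₂ hp).mp hne)
  have hD : (∀ I, I ⊆ M₂.E → I.ncard < M₂.E.ncard - r → M₂✶.Indep I) →
      {B | M₁.IsBase B}.ncard
        ≤ (1 + r) * {B | M₁.IsBase B ∧ M₂.IsBase B}.ncard := fun hp =>
    copaving_bound_sharp M₁ M₂ r hE hfin hr₁ hr₂ hp hne
  refine ⟨hP, hD, fun hp hd => ?_⟩
  rcases le_total r (M₁.E.ncard - r) with h | h
  · rw [min_eq_left h]
    exact hD hd
  · rw [min_eq_right h]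
    exact hP hp
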